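import Crest.Agent.Lib_helper9.Tetra

set_option autoImplicit false
open MeasureTheory
open scoped ENNReal

namespace Crest.Agent.helper9

/-- The vertices of the standard regular tetrahedron of the frozen statements. -/
noncomputable def kvert : Fin 4 → E3 :=
  ![!₂[1, 0, 0], !₂[-1, 0, 0], !₂[0, 1, Real.sqrt 2], !₂[0, -1, Real.sqrt 2]]

/-- The standard regular tetrahedron, literally as in the frozen statements. -/
noncomputable def K0 : Set E3 :=
  convexHull ℝ {!₂[1, 0, 0], !₂[-1, 0, 0], !₂[0, 1, Real.sqrt 2], !₂[0, -1, Real.sqrt 2]}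

lemma range_kvert : Set.range kvert =
    {!₂[1, 0, 0], !₂[-1, 0, 0], !₂[0, 1, Real.sqrt 2], !₂[0, -1, Real.sqrt 2]} := by
  ext z
  simp only [Set.mem_range, Set.mem_insert_iff, Set.mem_singleton_iff, kvert]
  constructor
  · rintro ⟨i, rfl⟩
    fin_cases i <;> simp
  · rintro (rfl | rfl | rfl | rfl)
    · exact ⟨0, rfl⟩
    · exact ⟨1, rfl⟩
    · exact ⟨2, rfl⟩
    · exact ⟨3, rfl⟩

lemma K0_eq : K0 = convexHull ℝ (Set.range kvert) := by rw [range_kvert]; rfl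

/-- sign pattern of the vertices of a regular tetrahedron inside a cube -/
def sgn : Fin 4 → Fin 3 → ℝ :=
  ![![1, 1, 1], ![1, -1, -1], ![-1, 1, -1], ![-1, -1, 1]]

section frame

variable (w : Fin 4 → E3) (ℓ : ℝ) (hℓ : 0 < ℓ) (hw : ∀ i j, i ≠ j → dist (w i) (w j) = ℓ)

include hw in
lemma inner_edges :
    inner ℝ (w 1 - w 0) (w 1 - w 0) = ℓ ^ 2 ∧ inner ℝ (w 2 - w 0) (w 2 - w 0) = ℓ ^ 2 ∧
    inner ℝ (w 3 - w 0) (w 3 - w 0) = ℓ ^ 2 ∧ inner ℝ (w 1 - w 0) (w 2 - w 0) = ℓ ^ 2 / 2 ∧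
    inner ℝ (w 1 - w 0) (w 3 - w 0) = ℓ ^ 2 / 2 ∧ inner ℝ (w 2 - w 0) (w 3 - w 0) = ℓ ^ 2 / 2 := by
  have n (i j : Fin 4) (h : i ≠ j) : ‖w i - w j‖ = ℓ := by rw [← dist_eq_norm]; exact hw i j h
  have h10 := n 1 0 (by decide)
  have h20 := n 2 0 (by decide)
  have h30 := n 3 0 (by decide)
  have h12 := n 1 2 (by decide)
  have h13 := n 1 3 (by decide)
  have h23 := n 2 3 (by decide)
  have e12 := norm_sub_sq_real (w 1 - w 0) (w 2 - w 0)
  have e13 := norm_sub_sq_real (w 1 - w 0) (w 3 - w 0)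
  have e23 := norm_sub_sq_real (w 2 - w 0) (w 3 - w 0)
  rw [sub_sub_sub_cancel_right] at e12 e13 e23
  rw [h10, h20, h12] at e12
  rw [h10, h30, h13] at e13
  rw [h20, h30, h23] at e23
  refine ⟨by rw [real_inner_self_eq_norm_sq, h10], by rw [real_inner_self_eq_norm_sq, h20],
    by rw [real_inner_self_eq_norm_sq, h30], by linarith, by linarith, by linarith⟩

include hw in
lemma inner_comb (x1 x2 x3 y1 y2 y3 : ℝ) :
    inner ℝ (x1 • (w 1 - w 0) + x2 • (w 2 - w 0) + x3 • (w 3 - w 0))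
      (y1 • (w 1 - w 0) + y2 • (w 2 - w 0) + y3 • (w 3 - w 0)) =
    ℓ ^ 2 / 2 * (2 * x1 * y1 + 2 * x2 * y2 + 2 * x3 * y3 + x1 * y2 + x1 * y3 + x2 * y1 + x2 * y3 +
      x3 * y1 + x3 * y2) := by
  obtain ⟨h11, h22, h33, h12, h13, h23⟩ := inner_edges w ℓ hw
  have h21 : inner ℝ (w 2 - w 0) (w 1 - w 0) = ℓ ^ 2 / 2 := by rw [real_inner_comm]; exact h12
  have h31 : inner ℝ (w 3 - w 0) (w 1 - w 0) = ℓ ^ 2 / 2 := by rw [real_inner_comm]; exact h13
  have h32 : inner ℝ (w 3 - w 0) (w 2 - w 0) = ℓ ^ 2 / 2 := by rw [real_inner_comm]; exact h23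
  simp only [inner_add_left, inner_add_right, inner_smul_left, inner_smul_right, conj_trivial,
    h11, h22, h33, h12, h13, h23, h21, h31, h32]
  ring

/-- the (unnormalised coefficients of the) cube frame of a regular tetrahedron -/
noncomputable def frameVec (i : Fin 3) : E3 :=
  ((Real.sqrt 2 * ℓ)⁻¹ * ![1, -1, -1] i) • (w 1 - w 0) +
  ((Real.sqrt 2 * ℓ)⁻¹ * ![-1, 1, -1] i) • (w 2 - w 0) +
  ((Real.sqrt 2 * ℓ)⁻¹ * ![-1, -1, 1] i) • (w 3 - w 0)

include hℓ hw in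
lemma orthonormal_frameVec : Orthonormal ℝ (frameVec w ℓ) := by
  rw [orthonormal_iff_ite]
  have hs2 : Real.sqrt 2 ^ 2 = 2 := Real.sq_sqrt (by norm_num)
  have hs0 : 0 < Real.sqrt 2 := Real.sqrt_pos.mpr (by norm_num)
  have hc : ((Real.sqrt 2 * ℓ)⁻¹) ^ 2 * ℓ ^ 2 = 1 / 2 := by
    rw [inv_pow, mul_pow, hs2]; field_simp
  intro i j
  unfold frameVec
  rw [inner_comb w ℓ hw]
  set c := (Real.sqrt 2 * ℓ)⁻¹ with hcdef
  fin_cases i <;> fin_cases j <;> simp
  all_goals first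
    | (right; ring)
    | linear_combination 2 * hc


/-- the cube frame of a regular tetrahedron as an orthonormal basis -/
noncomputable def frameBasis : OrthonormalBasis (Fin 3) ℝ E3 :=
  OrthonormalBasis.mk (orthonormal_frameVec w ℓ hℓ hw)
    (by
      rw [(orthonormal_frameVec w ℓ hℓ hw).linearIndependent.span_eq_top_of_card_eq_finrank
        (by simp)])

lemma frameBasis_apply (i : Fin 3) : frameBasis w ℓ hℓ hw i = frameVec w ℓ i := by
  simp [frameBasis]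

include hℓ in
/-- vertices in terms of the frame -/
lemma vertex_eq_frame (i : Fin 4) :
    w i = (1 / 4 : ℝ) • (w 0 + w 1 + w 2 + w 3) +
      (Real.sqrt 2 * ℓ / 4) • ∑ j, sgn i j • frameVec w ℓ j := by
  have hs0 : 0 < Real.sqrt 2 := Real.sqrt_pos.mpr (by norm_num)
  have hc : (Real.sqrt 2 * ℓ) * (Real.sqrt 2 * ℓ)⁻¹ = 1 := by
    apply mul_inv_cancel₀; positivity
  set c := (Real.sqrt 2 * ℓ)⁻¹ with hcdef
  set d := Real.sqrt 2 * ℓ with hd
  simp only [Fin.sum_univ_three, frameVec]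
  fin_cases i <;> simp [sgn]
  · linear_combination (norm := module) ((1 / 4 : ℝ) * hc) •
      ((w 1 - w 0) + (w 2 - w 0) + (w 3 - w 0))
  · linear_combination (norm := module) ((-1 / 4 : ℝ) * hc) •
      ((3 : ℝ) • (w 1 - w 0) - (w 2 - w 0) - (w 3 - w 0))
  · linear_combination (norm := module) ((-1 / 4 : ℝ) * hc) •
      ((3 : ℝ) • (w 2 - w 0) - (w 1 - w 0) - (w 3 - w 0))
  · linear_combination (norm := module) ((-1 / 4 : ℝ) * hc) •
      ((3 : ℝ) • (w 3 - w 0) - (w 1 - w 0) - (w 2 - w 0))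

end frame


lemma dist_kvert (i j : Fin 4) (h : i ≠ j) : dist (kvert i) (kvert j) = 2 := by
  have hs2 : Real.sqrt 2 ^ 2 = 2 := Real.sq_sqrt (by norm_num)
  have h4 : Real.sqrt 4 = 2 := by
    rw [show (4 : ℝ) = 2 ^ 2 by norm_num]; exact Real.sqrt_sq (by norm_num)
  rw [EuclideanSpace.dist_eq]
  rw [← h4]
  congr 1
  simp only [Fin.sum_univ_three, Real.dist_eq, sq_abs]
  fin_cases i <;> fin_cases j <;> first | (exfalso; exact h rfl) | (simp [kvert]; try nlinarith [hs2])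

/-- Every regular tetrahedron of edge `ℓ` is the image of the standard one under a similarity. -/
theorem exists_similarity (w : Fin 4 → E3) (ℓ : ℝ) (hℓ : 0 < ℓ)
    (hw : ∀ i j, i ≠ j → dist (w i) (w j) = ℓ) :
    ∃ (Φ : E3 ≃ₗᵢ[ℝ] E3) (m : E3), ∀ i, w i = m + (ℓ / 2) • Φ (kvert i) := by
  let bw := frameBasis w ℓ hℓ hw
  let bk := frameBasis kvert 2 (by norm_num) dist_kvert
  let Φ := bk.equiv bw (Equiv.refl _)
  have hΦ : ∀ j, Φ (frameVec kvert 2 j) = frameVec w ℓ j := by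
    intro j
    rw [← frameBasis_apply kvert 2 (by norm_num) dist_kvert, ← frameBasis_apply w ℓ hℓ hw]
    exact OrthonormalBasis.equiv_apply_basis _ _ _ _
  refine ⟨Φ, (1 / 4 : ℝ) • (w 0 + w 1 + w 2 + w 3) -
    (ℓ / 2) • Φ ((1 / 4 : ℝ) • (kvert 0 + kvert 1 + kvert 2 + kvert 3)), ?_⟩
  intro i
  have h1 := vertex_eq_frame w ℓ hℓ i
  have h2 := vertex_eq_frame kvert 2 (by norm_num) i
  have h3 : Φ (kvert i) = Φ ((1 / 4 : ℝ) • (kvert 0 + kvert 1 + kvert 2 + kvert 3)) +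
      (Real.sqrt 2 * 2 / 4) • ∑ j, sgn i j • frameVec w ℓ j := by
    conv_lhs => rw [h2]
    rw [map_add, map_smul _ (Real.sqrt 2 * 2 / 4), map_sum]
    simp only [map_smul, hΦ]
  rw [h3]
  conv_lhs => rw [h1]
  module


/-- image of a convex hull under a similarity -/
lemma similarity_image_convexHull (Φ : E3 ≃ₗᵢ[ℝ] E3) (m : E3) (c : ℝ) (S : Set E3) :
    (fun x => m + c • Φ x) '' convexHull ℝ S = convexHull ℝ ((fun x => m + c • Φ x) '' S) := by
  let Ψ : E3 →ᵃ[ℝ] E3 := (c • Φ.toLinearEquiv.toLinearMap).toAffineMap + AffineMap.const ℝ E3 m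
  have hΨ : (fun x => m + c • Φ x) = Ψ := by
    funext x
    simp [Ψ, add_comm]
  rw [hΨ, AffineMap.image_convexHull]

theorem convexHull_range_eq_image {w : Fin 4 → E3} {ℓ : ℝ} {Φ : E3 ≃ₗᵢ[ℝ] E3} {m : E3}
    (h : ∀ i, w i = m + (ℓ / 2) • Φ (kvert i)) :
    convexHull ℝ (Set.range w) = (fun x => m + (ℓ / 2) • Φ x) '' K0 := by
  rw [K0_eq, similarity_image_convexHull, ← Set.range_comp]
  congr 1
  ext z
  simp only [Set.mem_range, Function.comp]
  constructor
  · rintro ⟨i, rfl⟩; exact ⟨i, (h i).symm⟩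
  · rintro ⟨i, rfl⟩; exact ⟨i, h i⟩

lemma proj_similarity (Φ : E3 ≃ₗᵢ[ℝ] E3) (m : E3) (c : ℝ) (v x : E3) :
    (m + c • Φ x) - inner ℝ (m + c • Φ x) v • v =
      (m - inner ℝ m v • v) + Φ (c • (x - inner ℝ x (Φ.symm v) • Φ.symm v)) := by
  have h1 : inner ℝ (Φ x) v = inner ℝ x (Φ.symm v) := by
    rw [← Φ.inner_map_map x (Φ.symm v), Φ.apply_symm_apply]
  simp only [map_smul, map_sub, Φ.apply_symm_apply, inner_add_left, inner_smul_left, conj_trivial, h1]
  module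

open scoped Pointwise in
/-- Areas of projections transform under similarities by the square of the ratio. -/
theorem area_proj_similarity (Φ : E3 ≃ₗᵢ[ℝ] E3) (m : E3) (c : ℝ) (hc : c ≠ 0) (v : E3)
    (S : Set E3) :
    μHE[2] ((fun y => y - inner ℝ y v • v) '' ((fun x => m + c • Φ x) '' S)) =
      ENNReal.ofReal (c ^ 2) *
        μHE[2] ((fun y => y - inner ℝ y (Φ.symm v) • Φ.symm v) '' S) := by
  have hiso : Isometry (fun z : E3 => (m - inner ℝ m v • v) + Φ z) :=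
    (IsometryEquiv.addLeft (m - inner ℝ m v • v)).isometry.comp Φ.isometry
  have hset : (fun y => y - inner ℝ y v • v) '' ((fun x => m + c • Φ x) '' S) =
      (fun z : E3 => (m - inner ℝ m v • v) + Φ z) ''
        (c • ((fun y => y - inner ℝ y (Φ.symm v) • Φ.symm v) '' S)) := by
    rw [← Set.image_smul, Set.image_image, Set.image_image, Set.image_image]
    apply Set.image_congr
    intro x _
    exact proj_similarity Φ m c v x
  rw [hset, hiso.euclideanHausdorffMeasure_image, Measure.euclideanHausdorffMeasure_smul₀ 2 hc]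
  have : ENNReal.ofReal (c ^ 2) = ((‖c‖₊ ^ 2 : NNReal) : ENNReal) := by
    rw [← sq_abs, ← Real.norm_eq_abs, ENNReal.ofReal_pow (norm_nonneg _), ofReal_norm]
    simp [enorm_eq_nnnorm]
  rw [this, ENNReal.smul_def, smul_eq_mul]

/-- projections of compact sets have finite area -/
theorem area_proj_lt_top (v : E3) (hv : ‖v‖ = 1) {S : Set E3} (hS : IsCompact S) :
    μHE[2] ((fun y => y - inner ℝ y v • v) '' S) < ⊤ := by
  obtain ⟨P, ι, h⟩ := exists_planar_coords v hv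
  rw [area_proj_image h]
  exact (hS.image (LinearMap.continuous_of_finiteDimensional P)).measure_lt_top

lemma isCompact_K0 : IsCompact K0 := by
  apply Set.Finite.isCompact_convexHull
  simp

theorem area_proj_K0_lt_top (v : E3) (hv : ‖v‖ = 1) :
    μHE[2] ((fun y => y - inner ℝ y v • v) '' K0) < ⊤ :=
  area_proj_lt_top v hv isCompact_K0

theorem sqrt_two_le_area_proj_K0_toReal (v : E3) (hv : ‖v‖ = 1) :
    Real.sqrt 2 ≤ (μHE[2] ((fun y => y - inner ℝ y v • v) '' K0)).toReal := by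
  have h := sqrt_two_le_area_proj_tetra v hv
  exact (ENNReal.ofReal_le_iff_le_toReal (area_proj_K0_lt_top v hv).ne).mp h

section regular

variable (w : Fin 4 → E3) (ℓ : ℝ) (hℓ : 0 < ℓ) (hw : ∀ i j, i ≠ j → dist (w i) (w j) = ℓ)

include hℓ hw

/-- Every orthogonal projection of a regular tetrahedron of edge `ℓ` has area `≥ √2 ℓ² / 4`. -/
theorem le_area_proj_regular (v : E3) (hv : ‖v‖ = 1) :
    ENNReal.ofReal (Real.sqrt 2 * ℓ ^ 2 / 4) ≤
      μHE[2] ((fun y => y - inner ℝ y v • v) '' convexHull ℝ (Set.range w)) := by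
  obtain ⟨Φ, m, h⟩ := exists_similarity w ℓ hℓ hw
  rw [convexHull_range_eq_image h, area_proj_similarity Φ m (ℓ / 2) (by positivity)]
  have hv' : ‖Φ.symm v‖ = 1 := by rw [Φ.symm.norm_map, hv]
  calc ENNReal.ofReal (Real.sqrt 2 * ℓ ^ 2 / 4)
      = ENNReal.ofReal ((ℓ / 2) ^ 2) * ENNReal.ofReal (Real.sqrt 2) := by
        rw [← ENNReal.ofReal_mul (by positivity)]; congr 1; ring
    _ ≤ _ := mul_le_mul_right (sqrt_two_le_area_proj_tetra _ hv') _

omit hℓ hw in
theorem area_proj_range_lt_top (v : E3) (hv : ‖v‖ = 1) :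
    μHE[2] ((fun y => y - inner ℝ y v • v) '' convexHull ℝ (Set.range w)) < ⊤ :=
  area_proj_lt_top v hv ((Set.finite_range w).isCompact_convexHull (𝕜 := ℝ))

theorem le_area_proj_regular_toReal (v : E3) (hv : ‖v‖ = 1) :
    Real.sqrt 2 * ℓ ^ 2 / 4 ≤
      (μHE[2] ((fun y => y - inner ℝ y v • v) '' convexHull ℝ (Set.range w))).toReal :=
  (ENNReal.ofReal_le_iff_le_toReal (area_proj_range_lt_top w v hv).ne).mp
    (le_area_proj_regular w ℓ hℓ hw v hv)

end regular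

end Crest.Agent.helper9
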