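import Mathlib

set_option autoImplicit false
open MeasureTheory
open scoped ENNReal

namespace Crest.Agent.helper9

/-- The standard closed triangle in `ℝ × ℝ`. -/
def stdTriProd : Set (ℝ × ℝ) := {p | 0 ≤ p.1 ∧ 0 ≤ p.2 ∧ p.1 + p.2 ≤ 1}

lemma measurableSet_stdTriProd : MeasurableSet stdTriProd := by
  have h1 : IsClosed {p : ℝ × ℝ | 0 ≤ p.1} := isClosed_le continuous_const continuous_fst
  have h2 : IsClosed {p : ℝ × ℝ | 0 ≤ p.2} := isClosed_le continuous_const continuous_snd
  have h3 : IsClosed {p : ℝ × ℝ | p.1 + p.2 ≤ 1} :=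
    isClosed_le (continuous_fst.add continuous_snd) continuous_const
  exact ((h1.inter (h2.inter h3))).measurableSet

lemma volume_stdTriProd : volume stdTriProd = ENNReal.ofReal (1 / 2) := by
  rw [Measure.volume_eq_prod, Measure.prod_apply measurableSet_stdTriProd]
  have h : ∀ x : ℝ, volume (Prod.mk x ⁻¹' stdTriProd) =
      (Set.Icc (0:ℝ) 1).indicator (fun x => ENNReal.ofReal (1 - x)) x := by
    intro x
    by_cases hx : x ∈ Set.Icc (0:ℝ) 1
    · rw [Set.indicator_of_mem hx]
      have : Prod.mk x ⁻¹' stdTriProd = Set.Icc 0 (1 - x) := by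
        ext y
        simp only [stdTriProd, Set.mem_preimage, Set.mem_ofPred_eq, Set.mem_Icc]
        constructor
        · rintro ⟨_, h2, h3⟩; exact ⟨h2, by linarith⟩
        · rintro ⟨h2, h3⟩; exact ⟨hx.1, h2, by linarith⟩
      rw [this, Real.volume_Icc]; simp
    · rw [Set.indicator_of_notMem hx]
      have : Prod.mk x ⁻¹' stdTriProd = ∅ := by
        ext y
        simp only [stdTriProd, Set.mem_preimage, Set.mem_ofPred_eq, Set.mem_empty_iff_false,
          iff_false, not_and, not_le]
        intro h1 h2
        by_contra h3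
        exact hx ⟨h1, by linarith⟩
      rw [this]; simp
  simp_rw [h]
  rw [lintegral_indicator measurableSet_Icc]
  rw [← ofReal_integral_eq_lintegral_ofReal]
  · congr 1
    rw [integral_Icc_eq_integral_Ioc, ← intervalIntegral.integral_of_le (by norm_num)]
    rw [intervalIntegral.integral_sub (by simp) (by simp)]
    simp only [intervalIntegral.integral_const, integral_id]
    norm_num
  · exact (continuous_const.sub continuous_id).integrableOn_Icc
  · rw [Filter.EventuallyLE, ae_restrict_iff' measurableSet_Icc]
    exact Filter.Eventually.of_forall (fun x hx => by simpa using hx.2)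


abbrev E2 := EuclideanSpace ℝ (Fin 2)
abbrev E3 := EuclideanSpace ℝ (Fin 3)

/-- The standard closed triangle in the Euclidean plane. -/
def stdTri : Set E2 := {x | 0 ≤ x 0 ∧ 0 ≤ x 1 ∧ x 0 + x 1 ≤ 1}

lemma volume_stdTri : volume stdTri = ENNReal.ofReal (1 / 2) := by
  have hf : MeasurePreserving (fun x : E2 => MeasurableEquiv.finTwoArrow (WithLp.ofLp x))
      volume volume :=
    (volume_preserving_finTwoArrow ℝ).comp (PiLp.volume_preserving_ofLp (Fin 2))
  have : stdTri = (fun x : E2 => MeasurableEquiv.finTwoArrow (WithLp.ofLp x)) ⁻¹' stdTriProd := by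
    ext x
    simp [stdTri, stdTriProd, MeasurableEquiv.finTwoArrow]
  rw [this, hf.measure_preimage measurableSet_stdTriProd.nullMeasurableSet, volume_stdTriProd]

lemma convex_comb3 {E : Type*} [AddCommGroup E] [Module ℝ E] {C : Set E} (hC : Convex ℝ C)
    {p q r : E} (hp : p ∈ C) (hq : q ∈ C) (hr : r ∈ C) {α β γ : ℝ}
    (hα : 0 ≤ α) (hβ : 0 ≤ β) (hγ : 0 ≤ γ) (h : α + β + γ = 1) :
    α • p + β • q + γ • r ∈ C := by
  have := hC.sum_mem (t := Finset.univ) (w := ![α, β, γ]) (z := ![p, q, r])
    (by intro i _; fin_cases i <;> simpa) (by simpa [Fin.sum_univ_three] using h)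
    (by intro i _; fin_cases i <;> simpa)
  simpa [Fin.sum_univ_three] using this

/-- A triangle in any real vector space as an affine image of the standard triangle. -/
lemma convexHull_triple_eq_image {E : Type*} [AddCommGroup E] [Module ℝ E] (a b c : E) :
    convexHull ℝ {a, b, c} = (fun x : E2 => a + (x 0 • (b - a) + x 1 • (c - a))) '' stdTri := by
  apply Set.Subset.antisymm
  · apply convexHull_min
    · intro z hz
      simp only [Set.mem_insert_iff, Set.mem_singleton_iff] at hz
      rcases hz with rfl | rfl | rfl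
      · exact ⟨!₂[0, 0], by simp [stdTri], by simp⟩
      · exact ⟨!₂[1, 0], by simp [stdTri], by simp⟩
      · exact ⟨!₂[0, 1], by simp [stdTri], by simp⟩
    · rintro _ ⟨x, hx, rfl⟩ _ ⟨y, hy, rfl⟩ s t hs ht hst
      refine ⟨s • x + t • y, ?_, ?_⟩
      · simp only [stdTri, Set.mem_ofPred_eq, PiLp.add_apply, PiLp.smul_apply, smul_eq_mul] at *
        refine ⟨by nlinarith [hx.1, hy.1], by nlinarith [hx.2.1, hy.2.1], ?_⟩
        nlinarith [hx.2.2, hy.2.2]
      · simp only [PiLp.add_apply, PiLp.smul_apply, smul_eq_mul]
        linear_combination (norm := module) (-hst) • a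
  · rintro _ ⟨x, hx, rfl⟩
    have h := convex_comb3 (convex_convexHull ℝ ({a, b, c} : Set E))
      (subset_convexHull ℝ _ (by simp : a ∈ ({a, b, c} : Set E)))
      (subset_convexHull ℝ _ (by simp : b ∈ ({a, b, c} : Set E)))
      (subset_convexHull ℝ _ (by simp : c ∈ ({a, b, c} : Set E)))
      (α := 1 - x 0 - x 1) (β := x 0) (γ := x 1) (by linarith [hx.2.2]) hx.1 hx.2.1 (by ring)
    convert h using 1
    module


/-- planar determinant -/
def det2 (x y : E2) : ℝ := x 0 * y 1 - x 1 * y 0

/-- The linear map `x ↦ x 0 • p + x 1 • q`. -/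
noncomputable def lin2 {E : Type*} [AddCommGroup E] [Module ℝ E] (p q : E) : E2 →ₗ[ℝ] E where
  toFun x := x 0 • p + x 1 • q
  map_add' x y := by simp only [PiLp.add_apply]; module
  map_smul' t x := by simp only [PiLp.smul_apply, smul_eq_mul, RingHom.id_apply]; module

lemma lin2_apply {E : Type*} [AddCommGroup E] [Module ℝ E] (p q : E) (x : E2) :
    lin2 p q x = x 0 • p + x 1 • q := rfl

lemma det_lin2 (p q : E2) : LinearMap.det (lin2 p q) = det2 p q := by
  rw [← LinearMap.det_toMatrix (EuclideanSpace.basisFun (Fin 2) ℝ).toBasis, Matrix.det_fin_two]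
  simp [LinearMap.toMatrix_apply, lin2_apply, det2]
  ring

lemma volume_triangle (a b c : E2) :
    volume (convexHull ℝ {a, b, c}) = ENNReal.ofReal (|det2 (b - a) (c - a)| / 2) := by
  rw [convexHull_triple_eq_image]
  have : (fun x : E2 => a + (x 0 • (b - a) + x 1 • (c - a))) '' stdTri
      = (fun z => a + z) '' (lin2 (b - a) (c - a) '' stdTri) := by
    rw [Set.image_image]; rfl
  rw [this, Set.image_add_left, measure_preimage_add, Measure.addHaar_image_linearMap,
    volume_stdTri, det_lin2, ← ENNReal.ofReal_mul (abs_nonneg _)]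
  congr 1
  ring


lemma det2_sub_right (x y z : E2) : det2 x (y - z) = det2 x y - det2 x z := by
  simp only [det2, PiLp.sub_apply]; ring

lemma det2_sq (x y : E2) : det2 x y ^ 2 = ‖x‖ ^ 2 * ‖y‖ ^ 2 - (inner ℝ x y) ^ 2 := by
  simp only [det2, EuclideanSpace.norm_sq_eq, Fin.sum_univ_two, PiLp.inner_apply, Real.norm_eq_abs,
    sq_abs, RCLike.inner_apply, conj_trivial]
  ring

lemma abs_det2 (x y : E2) : |det2 x y| = Real.sqrt (‖x‖ ^ 2 * ‖y‖ ^ 2 - (inner ℝ x y) ^ 2) := by
  rw [← det2_sq, Real.sqrt_sq_eq_abs]

/-- the zero set of a nontrivial affine functional is Lebesgue-null -/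
lemma volume_line (a p : E2) (hp : p ≠ 0) : volume {x : E2 | det2 p (x - a) = 0} = 0 := by
  let φ : E2 →ₗ[ℝ] ℝ :=
    { toFun := fun x => det2 p x
      map_add' := fun x y => by simp only [det2, PiLp.add_apply]; ring
      map_smul' := fun t x => by simp only [det2, PiLp.smul_apply, smul_eq_mul, RingHom.id_apply]; ring }
  have h1 : {x : E2 | det2 p (x - a) = 0} = (fun x => x + (-a)) ⁻¹' (LinearMap.ker φ : Set E2) := by
    ext x
    simp [φ, sub_eq_add_neg]
  rw [h1, measure_preimage_add_right]
  apply Measure.addHaar_submodule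
  intro htop
  apply hp
  have h0 : ∀ x, det2 p x = 0 := by
    intro x
    have : x ∈ LinearMap.ker φ := by rw [htop]; trivial
    simpa [φ] using this
  have e0 := h0 !₂[0, 1]
  have e1 := h0 !₂[1, 0]
  simp [det2] at e0 e1
  ext i
  fin_cases i <;> simp [e0, e1]


lemma convex_halfplane (a p : E2) (D : ℝ) : Convex ℝ {x : E2 | 0 ≤ D * det2 p (x - a)} := by
  intro x hx y hy s t hs ht hst
  simp only [Set.mem_ofPred_eq] at *
  have : D * det2 p (s • x + t • y - a) = s * (D * det2 p (x - a)) + t * (D * det2 p (y - a)) := by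
    have hs' : s = 1 - t := by linarith
    subst hs'
    simp only [det2, PiLp.sub_apply, PiLp.add_apply, PiLp.smul_apply, smul_eq_mul]
    ring
  rw [this]
  positivity

lemma triangle_subset_halfplane (a b c : E2) :
    convexHull ℝ {a, b, c} ⊆
      {x : E2 | 0 ≤ det2 (b - a) (c - a) * det2 (b - a) (x - a)} := by
  apply convexHull_min _ (convex_halfplane _ _ _)
  intro z hz
  simp only [Set.mem_insert_iff, Set.mem_singleton_iff] at hz
  rcases hz with rfl | rfl | rfl
  · simp [det2]
  · simp only [Set.mem_ofPred_eq]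
    have : det2 (z - a) (z - a) = 0 := by simp only [det2]; ring
    rw [this]; simp
  · simp only [Set.mem_ofPred_eq]
    exact mul_self_nonneg _

/-- The convex hull of four planar points has area at least half the absolute value of the
determinant of the two "diagonals". -/
lemma volume_quad_ge (a b c d : E2) :
    ENNReal.ofReal (|det2 (b - a) (d - c)| / 2) ≤ volume (convexHull ℝ {a, b, c, d}) := by
  set D1 := det2 (b - a) (c - a) with hD1
  set D2 := det2 (b - a) (d - a) with hD2
  have hD : det2 (b - a) (d - c) = D2 - D1 := by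
    simp only [hD1, hD2, det2, PiLp.sub_apply]; ring
  have hT1 : convexHull ℝ {a, b, c} ⊆ convexHull ℝ {a, b, c, d} := by
    apply convexHull_mono
    intro z hz
    simp only [Set.mem_insert_iff, Set.mem_singleton_iff] at hz ⊢
    tauto
  have hT2 : convexHull ℝ {a, b, d} ⊆ convexHull ℝ {a, b, c, d} := by
    apply convexHull_mono
    intro z hz
    simp only [Set.mem_insert_iff, Set.mem_singleton_iff] at hz ⊢
    tauto
  rw [hD]
  by_cases hsign : 0 ≤ D1 * D2
  · -- same side: one of the triangles suffices
    have hmax : |D2 - D1| ≤ |D1| ∨ |D2 - D1| ≤ |D2| := by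
      rcases le_total 0 D1 with h1 | h1
      · have h2 : 0 ≤ D2 ∨ D1 = 0 := by
          by_contra hcon
          push Not at hcon
          have : 0 < D1 := lt_of_le_of_ne h1 (Ne.symm hcon.2)
          nlinarith [hcon.1]
        rcases h2 with h2 | h2
        · rcases le_total D1 D2 with h | h
          · right; rw [abs_of_nonneg (by linarith), abs_of_nonneg h2]; linarith
          · left; rw [abs_of_nonpos (by linarith), abs_of_nonneg h1]; linarith
        · right; rw [h2]; simp
      · have h2 : D2 ≤ 0 ∨ D1 = 0 := by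
          by_contra hcon
          push Not at hcon
          have : D1 < 0 := lt_of_le_of_ne h1 hcon.2
          nlinarith [hcon.1]
        rcases h2 with h2 | h2
        · rcases le_total D1 D2 with h | h
          · left; rw [abs_of_nonneg (by linarith), abs_of_nonpos h1]; linarith
          · right; rw [abs_of_nonpos (by linarith), abs_of_nonpos h2]; linarith
        · right; rw [h2]; simp
    rcases hmax with h | h
    · calc ENNReal.ofReal (|D2 - D1| / 2) ≤ ENNReal.ofReal (|D1| / 2) :=
            ENNReal.ofReal_le_ofReal (by linarith)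
        _ = volume (convexHull ℝ {a, b, c}) := (volume_triangle a b c).symm
        _ ≤ _ := measure_mono hT1
    · calc ENNReal.ofReal (|D2 - D1| / 2) ≤ ENNReal.ofReal (|D2| / 2) :=
            ENNReal.ofReal_le_ofReal (by linarith)
        _ = volume (convexHull ℝ {a, b, d}) := (volume_triangle a b d).symm
        _ ≤ _ := measure_mono hT2
  · -- opposite sides: the two triangles are almost disjoint
    push Not at hsign
    have hba : b - a ≠ 0 := by
      intro h0
      rw [hD1, h0] at hsign
      simp [det2] at hsign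
    have hdisj : AEDisjoint volume (convexHull ℝ {a, b, c}) (convexHull ℝ {a, b, d}) := by
      apply measure_mono_null _ (volume_line a (b - a) hba)
      rintro x ⟨hx1, hx2⟩
      have h1 := triangle_subset_halfplane a b c hx1
      have h2 := triangle_subset_halfplane a b d hx2
      simp only [Set.mem_ofPred_eq] at h1 h2 ⊢
      rw [← hD1] at h1
      rw [← hD2] at h2
      by_contra hne
      have hpos : 0 < det2 (b - a) (x - a) ^ 2 := by positivity
      nlinarith [mul_nonneg h1 h2]
    have hmeas : NullMeasurableSet (convexHull ℝ {a, b, d}) (volume : Measure E2) := by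
      apply MeasurableSet.nullMeasurableSet
      apply IsClosed.measurableSet
      apply IsCompact.isClosed
      apply Set.Finite.isCompact_convexHull
      simp
    have habs : |D2 - D1| = |D1| + |D2| := by
      rcases lt_or_ge 0 D1 with h1 | h1
      · have h2 : D2 < 0 := by nlinarith
        rw [abs_of_neg (by linarith), abs_of_pos h1, abs_of_neg h2]; ring
      · have h1' : D1 < 0 := by
          rcases eq_or_lt_of_le h1 with h | h
          · rw [h] at hsign; simp at hsign
          · exact h
        have h2 : 0 < D2 := by nlinarith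
        rw [abs_of_pos (by linarith), abs_of_neg h1', abs_of_pos h2]; ring
    calc ENNReal.ofReal (|D2 - D1| / 2)
        = ENNReal.ofReal (|D1| / 2) + ENNReal.ofReal (|D2| / 2) := by
          rw [habs, add_div, ENNReal.ofReal_add (by positivity) (by positivity)]
      _ = volume (convexHull ℝ {a, b, c}) + volume (convexHull ℝ {a, b, d}) := by
          rw [volume_triangle, volume_triangle]
      _ = volume (convexHull ℝ {a, b, c} ∪ convexHull ℝ {a, b, d}) :=
          (measure_union₀ hmeas hdisj).symm
      _ ≤ _ := measure_mono (Set.union_subset hT1 hT2)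

end Crest.Agent.helper9
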