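import Crest.Agent.Lib_helper9.Planar

set_option autoImplicit false
open MeasureTheory
open scoped ENNReal

namespace Crest.Agent.helper9

/-- the orthogonal projection along a unit vector, as in the frozen statements -/
noncomputable def projAlong (v : E3) : E3 → E3 := fun y => y - inner ℝ y v • v

/-- triple product `det (x, y, v)` -/
def det3 (x y v : E3) : ℝ :=
  x 0 * (y 1 * v 2 - y 2 * v 1) - x 1 * (y 0 * v 2 - y 2 * v 0) + x 2 * (y 0 * v 1 - y 1 * v 0)

/-- Coordinates on the plane `v^⊥`: a linear map `P : E3 → E2` and a linear isometry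
`ι : E2 → E3` with `ι ∘ P` the orthogonal projection along `v`. -/
lemma exists_planar_coords (v : E3) (hv : ‖v‖ = 1) :
    ∃ (P : E3 →ₗ[ℝ] E2) (ι : E2 →ₗᵢ[ℝ] E3), ∀ y, ι (P y) = y - inner ℝ y v • v := by
  have hv0 : v ≠ 0 := by
    intro h; rw [h] at hv; simp at hv
  have : Fact (Module.finrank ℝ E3 = 2 + 1) := ⟨by simp⟩
  let b := OrthonormalBasis.fromOrthogonalSpanSingleton (𝕜 := ℝ) 2 hv0
  let P0 : E3 →ₗ[ℝ] E3 :=
    { toFun := fun y => y - inner ℝ y v • v
      map_add' := fun x y => by rw [inner_add_left]; module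
      map_smul' := fun t x => by
        rw [inner_smul_left]; simp only [conj_trivial, RingHom.id_apply]; module }
  have hP0 : ∀ y, P0 y ∈ (ℝ ∙ v)ᗮ := by
    intro y
    rw [Submodule.mem_orthogonal_singleton_iff_inner_right]
    simp only [P0, LinearMap.coe_mk, AddHom.coe_mk]
    rw [inner_sub_right, inner_smul_right, real_inner_self_eq_norm_sq, hv, real_inner_comm]
    ring
  refine ⟨b.repr.toLinearEquiv.toLinearMap ∘ₗ (P0.codRestrict _ hP0),
    (ℝ ∙ v)ᗮ.subtypeₗᵢ.comp b.repr.symm.toLinearIsometry, ?_⟩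
  intro y
  simp [P0]

lemma inner_planar_coords {v : E3} {P : E3 →ₗ[ℝ] E2} {ι : E2 →ₗᵢ[ℝ] E3} (hv : ‖v‖ = 1)
    (h : ∀ y, ι (P y) = y - inner ℝ y v • v) (x y : E3) :
    inner ℝ (P x) (P y) = inner ℝ x y - inner ℝ x v * inner ℝ y v := by
  rw [← ι.inner_map_map, h, h]
  simp only [inner_sub_left, inner_sub_right, inner_smul_left, inner_smul_right, conj_trivial,
    real_inner_self_eq_norm_sq, hv, real_inner_comm]
  ring

lemma abs_det2_planar_coords {v : E3} {P : E3 →ₗ[ℝ] E2} {ι : E2 →ₗᵢ[ℝ] E3} (hv : ‖v‖ = 1)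
    (h : ∀ y, ι (P y) = y - inner ℝ y v • v) (x y : E3) :
    |det2 (P x) (P y)| = |det3 x y v| := by
  rw [← sq_eq_sq_iff_abs_eq_abs, det2_sq, ← real_inner_self_eq_norm_sq, ← real_inner_self_eq_norm_sq,
    inner_planar_coords hv h, inner_planar_coords hv h, inner_planar_coords hv h]
  have hv2 : v 0 ^ 2 + v 1 ^ 2 + v 2 ^ 2 = 1 := by
    have := EuclideanSpace.norm_sq_eq v
    rw [hv] at this
    simp only [Fin.sum_univ_three, Real.norm_eq_abs, sq_abs] at this
    linarith
  simp only [det3, PiLp.inner_apply, Fin.sum_univ_three, RCLike.inner_apply, conj_trivial]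
  linear_combination ((x 0 ^ 2 + x 1 ^ 2 + x 2 ^ 2) * (y 0 ^ 2 + y 1 ^ 2 + y 2 ^ 2) -
    (x 0 * y 0 + x 1 * y 1 + x 2 * y 2) ^ 2) * (-hv2)

lemma area_proj_image {v : E3} {P : E3 →ₗ[ℝ] E2} {ι : E2 →ₗᵢ[ℝ] E3}
    (h : ∀ y, ι (P y) = y - inner ℝ y v • v) (S : Set E3) :
    μHE[2] ((fun y => y - inner ℝ y v • v) '' S) = volume (P '' S) := by
  have : (fun y => y - inner ℝ y v • v) '' S = ι '' (P '' S) := by
    rw [Set.image_image]
    exact Set.image_congr (fun y _ => (h y).symm)
  rw [this, ι.isometry.euclideanHausdorffMeasure_image,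
    EuclideanSpace.euclideanHausdorffMeasure_eq_volume]

/-- Area of the projection of a triangle. -/
theorem area_proj_triangle (v : E3) (hv : ‖v‖ = 1) (a b c : E3) :
    μHE[2] ((fun y => y - inner ℝ y v • v) '' convexHull ℝ {a, b, c}) =
      ENNReal.ofReal (|det3 (b - a) (c - a) v| / 2) := by
  obtain ⟨P, ι, h⟩ := exists_planar_coords v hv
  rw [area_proj_image h, P.image_convexHull]
  simp only [Set.image_insert_eq, Set.image_singleton]
  rw [volume_triangle, ← map_sub, ← map_sub, abs_det2_planar_coords hv h]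

/-- Lower bound for the area of the projection of a tetrahedron. -/
theorem area_proj_tetra_ge (v : E3) (hv : ‖v‖ = 1) (a b c d : E3) :
    ENNReal.ofReal (|det3 (b - a) (d - c) v| / 2) ≤
      μHE[2] ((fun y => y - inner ℝ y v • v) '' convexHull ℝ {a, b, c, d}) := by
  obtain ⟨P, ι, h⟩ := exists_planar_coords v hv
  rw [area_proj_image h, P.image_convexHull]
  simp only [Set.image_insert_eq, Set.image_singleton]
  rw [← abs_det2_planar_coords hv h, map_sub, map_sub]
  exact volume_quad_ge _ _ _ _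

/-- Area of a triangle lying in the plane `u^⊥`. -/
theorem area_triangle_of_perp (u : E3) (hu : ‖u‖ = 1) (p q r : E3)
    (hp : inner ℝ p u = 0) (hq : inner ℝ q u = 0) (hr : inner ℝ r u = 0) :
    μHE[2] (convexHull ℝ {p, q, r}) = ENNReal.ofReal (|det3 (q - p) (r - p) u| / 2) := by
  rw [← area_proj_triangle u hu]
  congr 1
  symm
  apply Set.EqOn.image_eq_self
  intro y hy
  have : convexHull ℝ {p, q, r} ⊆ {y : E3 | inner ℝ y u = 0} := by
    apply convexHull_min
    · intro z hz
      simp only [Set.mem_insert_iff, Set.mem_singleton_iff] at hz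
      rcases hz with rfl | rfl | rfl <;> assumption
    · intro x hx y hy s t _ _ _
      simp only [Set.mem_ofPred_eq] at *
      rw [inner_add_left, inner_smul_left, inner_smul_left, hx, hy]; simp
  have hy0 : inner ℝ y u = 0 := this hy
  simp [hy0]


/-- the projection along `v` as a linear map -/
noncomputable def projLin (v : E3) : E3 →ₗ[ℝ] E3 where
  toFun := fun y => y - inner ℝ y v • v
  map_add' := fun x y => by rw [inner_add_left]; module
  map_smul' := fun t x => by
    rw [inner_smul_left]; simp only [conj_trivial, RingHom.id_apply]; module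

lemma projLin_apply (v y : E3) : projLin v y = y - inner ℝ y v • v := rfl

lemma coe_projLin (v : E3) : (fun y => y - inner ℝ y v • v) = projLin v := rfl

lemma proj_image_convexHull (v : E3) (S : Set E3) :
    (fun y => y - inner ℝ y v • v) '' convexHull ℝ S =
      convexHull ℝ ((fun y => y - inner ℝ y v • v) '' S) := by
  rw [coe_projLin, LinearMap.image_convexHull]

end Crest.Agent.helper9
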