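import Crest.Agent.Lib_helper9.Proj

set_option autoImplicit false
open MeasureTheory
open scoped ENNReal

namespace Crest.Agent.helper9

/-- the elementary inequality behind the minimal projection of the regular tetrahedron -/
lemma tetra_key (x y z : ℝ) (h : x ^ 2 + y ^ 2 + z ^ 2 = 1) :
    Real.sqrt 2 ≤ 2 * |z| ∨ Real.sqrt 2 ≤ Real.sqrt 2 * |x + y| ∨
    Real.sqrt 2 ≤ Real.sqrt 2 * |x - y| ∨
    Real.sqrt 2 ≤ |Real.sqrt 2 * y - z| ∨ Real.sqrt 2 ≤ |Real.sqrt 2 * y + z| ∨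
    Real.sqrt 2 ≤ |Real.sqrt 2 * x + z| ∨ Real.sqrt 2 ≤ |Real.sqrt 2 * x - z| := by
  set s := Real.sqrt 2 with hs
  have hs2 : s ^ 2 = 2 := Real.sq_sqrt (by norm_num)
  have hs0 : 0 < s := Real.sqrt_pos.mpr (by norm_num)
  by_contra hcon
  push Not at hcon
  obtain ⟨h1, h2, h3, h4, h5, h6, h7⟩ := hcon
  have h2' : |x + y| < 1 := by
    by_contra hh; push Not at hh; nlinarith
  have h3' : |x - y| < 1 := by
    by_contra hh; push Not at hh; nlinarith
  rw [abs_lt] at h2' h3' h4 h5 h6 h7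
  have h1' : |z| < s / 2 := by linarith
  rw [abs_lt] at h1'
  -- p = |z|, q = |x+y|/s, r = |x-y|/s all in [0, 1/s], p + q + r < s
  -- z^2 ≤ |z| s/2 ; (x+y)^2 ≤ |x+y| ; (x-y)^2 ≤ |x-y|
  have e : (x + y) ^ 2 + (x - y) ^ 2 + 2 * z ^ 2 = 2 := by nlinarith
  have a1 : z ^ 2 ≤ |z| * (s / 2) := by
    have : |z| ≤ s / 2 := abs_le.mpr ⟨by linarith [h1'.1], by linarith [h1'.2]⟩
    nlinarith [abs_nonneg z, sq_abs z]
  have a2 : (x + y) ^ 2 ≤ |x + y| := by
    have : |x + y| ≤ 1 := abs_le.mpr ⟨by linarith [h2'.1], by linarith [h2'.2]⟩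
    nlinarith [abs_nonneg (x + y), sq_abs (x + y)]
  have a3 : (x - y) ^ 2 ≤ |x - y| := by
    have : |x - y| ≤ 1 := abs_le.mpr ⟨by linarith [h3'.1], by linarith [h3'.2]⟩
    nlinarith [abs_nonneg (x - y), sq_abs (x - y)]
  -- |x+y| + |x-y| = 2 max(|x|,|y|), and s * that/2 + |z| < s
  have a4 : s * (|x + y| + |x - y|) / 2 + |z| < s := by
    rcases abs_cases (x + y) with ⟨e1, _⟩ | ⟨e1, _⟩ <;> rcases abs_cases (x - y) with ⟨e2, _⟩ | ⟨e2, _⟩ <;>
      rcases abs_cases z with ⟨e3, _⟩ | ⟨e3, _⟩ <;> rw [e1, e2, e3] <;> linarith [h4.1, h4.2, h5.1, h5.2, h6.1, h6.2, h7.1, h7.2]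
  have a5 := mul_lt_mul_of_pos_left a4 hs0
  have a6 : s * (s * (|x + y| + |x - y|) / 2 + |z|) = (|x + y| + |x - y|) + s * |z| := by
    linear_combination ((|x + y| + |x - y|) / 2) * hs2
  rw [a6] at a5
  nlinarith


lemma area_proj_mono (v : E3) {S T : Set E3} (h : S ⊆ T) :
    μHE[2] ((fun y => y - inner ℝ y v • v) '' convexHull ℝ S) ≤
      μHE[2] ((fun y => y - inner ℝ y v • v) '' convexHull ℝ T) :=
  measure_mono (Set.image_mono (convexHull_mono h))

lemma norm_eq_one_coords {v : E3} (hv : ‖v‖ = 1) : v 0 ^ 2 + v 1 ^ 2 + v 2 ^ 2 = 1 := by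
  have := EuclideanSpace.norm_sq_eq v
  rw [hv] at this
  simp only [Fin.sum_univ_three, Real.norm_eq_abs, sq_abs] at this
  linarith

/-- Every orthogonal projection of the standard regular tetrahedron has area at least `√2`. -/
theorem sqrt_two_le_area_proj_tetra (v : E3) (hv : ‖v‖ = 1) :
    ENNReal.ofReal (Real.sqrt 2) ≤ μHE[2] ((fun y => y - inner ℝ y v • v) ''
      convexHull ℝ {!₂[1, 0, 0], !₂[-1, 0, 0], !₂[0, 1, Real.sqrt 2], !₂[0, -1, Real.sqrt 2]}) := by
  set a : E3 := !₂[1, 0, 0] with ha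
  set b : E3 := !₂[-1, 0, 0] with hb
  set c : E3 := !₂[0, 1, Real.sqrt 2] with hc
  set d : E3 := !₂[0, -1, Real.sqrt 2] with hd
  have hs0 : 0 ≤ Real.sqrt 2 := Real.sqrt_nonneg 2
  rcases tetra_key (v 0) (v 1) (v 2) (norm_eq_one_coords hv) with h | h | h | h | h | h | h
  · refine le_trans (ENNReal.ofReal_le_ofReal ?_) (area_proj_tetra_ge v hv a b c d)
    have : det3 (b - a) (d - c) v = 4 * v 2 := by
      simp [det3, ha, hb, hc, hd]; ring
    rw [this, abs_mul]; norm_num; linarith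
  · refine le_trans (ENNReal.ofReal_le_ofReal ?_) ((area_proj_tetra_ge v hv a c b d).trans
      (area_proj_mono v (by intro z; simp only [Set.mem_insert_iff, Set.mem_singleton_iff]; tauto)))
    have : det3 (c - a) (d - b) v = 2 * Real.sqrt 2 * (v 0 + v 1) := by
      simp [det3, ha, hb, hc, hd]; ring
    rw [this, abs_mul, abs_mul, abs_of_nonneg hs0]; norm_num; linarith
  · refine le_trans (ENNReal.ofReal_le_ofReal ?_) ((area_proj_tetra_ge v hv a d b c).trans
      (area_proj_mono v (by intro z; simp only [Set.mem_insert_iff, Set.mem_singleton_iff]; tauto)))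
    have : det3 (d - a) (c - b) v = - (2 * Real.sqrt 2 * (v 0 - v 1)) := by
      simp [det3, ha, hb, hc, hd]; ring
    rw [this, abs_neg, abs_mul, abs_mul, abs_of_nonneg hs0]; norm_num; linarith
  · refine le_trans (ENNReal.ofReal_le_ofReal ?_) ((area_proj_triangle v hv a b c).symm.le.trans
      (area_proj_mono v (by intro z; simp only [Set.mem_insert_iff, Set.mem_singleton_iff]; tauto)))
    have : det3 (b - a) (c - a) v = 2 * (Real.sqrt 2 * v 1 - v 2) := by
      simp [det3, ha, hb, hc, hd]; ring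
    rw [this, abs_mul]; norm_num; linarith
  · refine le_trans (ENNReal.ofReal_le_ofReal ?_) ((area_proj_triangle v hv a b d).symm.le.trans
      (area_proj_mono v (by intro z; simp only [Set.mem_insert_iff, Set.mem_singleton_iff]; tauto)))
    have : det3 (b - a) (d - a) v = 2 * (Real.sqrt 2 * v 1 + v 2) := by
      simp [det3, ha, hb, hc, hd]; ring
    rw [this, abs_mul]; norm_num; linarith
  · refine le_trans (ENNReal.ofReal_le_ofReal ?_) ((area_proj_triangle v hv a c d).symm.le.trans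
      (area_proj_mono v (by intro z; simp only [Set.mem_insert_iff, Set.mem_singleton_iff]; tauto)))
    have : det3 (c - a) (d - a) v = 2 * (Real.sqrt 2 * v 0 + v 2) := by
      simp [det3, ha, hb, hc, hd]; ring
    rw [this, abs_mul]; norm_num; linarith
  · refine le_trans (ENNReal.ofReal_le_ofReal ?_) ((area_proj_triangle v hv b c d).symm.le.trans
      (area_proj_mono v (by intro z; simp only [Set.mem_insert_iff, Set.mem_singleton_iff]; tauto)))
    have : det3 (c - b) (d - b) v = 2 * (Real.sqrt 2 * v 0 - v 2) := by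
      simp [det3, ha, hb, hc, hd]; ring
    rw [this, abs_mul]; norm_num; linarith


/-- The projection of the standard regular tetrahedron along the `x`-axis has area `√2`. -/
theorem area_proj_tetra_ex :
    μHE[2] ((fun y => y - inner ℝ y (!₂[1, 0, 0] : E3) • (!₂[1, 0, 0] : E3)) ''
      convexHull ℝ {!₂[1, 0, 0], !₂[-1, 0, 0], !₂[0, 1, Real.sqrt 2], !₂[0, -1, Real.sqrt 2]}) =
    ENNReal.ofReal (Real.sqrt 2) := by
  have hv : ‖(!₂[1, 0, 0] : E3)‖ = 1 := by
    simp [EuclideanSpace.norm_eq, Fin.sum_univ_three]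
  rw [proj_image_convexHull]
  have h1 : (!₂[1, 0, 0] : E3) - inner ℝ (!₂[1, 0, 0] : E3) (!₂[1, 0, 0] : E3) • (!₂[1, 0, 0] : E3)
      = 0 := by
    rw [real_inner_self_eq_norm_sq, hv]; simp
  have h2 : (!₂[-1, 0, 0] : E3) - inner ℝ (!₂[-1, 0, 0] : E3) (!₂[1, 0, 0] : E3) • (!₂[1, 0, 0] : E3)
      = 0 := by
    ext i; fin_cases i <;> simp [PiLp.inner_apply, Fin.sum_univ_three]
  have h3 : (!₂[0, 1, Real.sqrt 2] : E3) -
      inner ℝ (!₂[0, 1, Real.sqrt 2] : E3) (!₂[1, 0, 0] : E3) • (!₂[1, 0, 0] : E3)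
      = !₂[0, 1, Real.sqrt 2] := by
    ext i; fin_cases i <;> simp [PiLp.inner_apply, Fin.sum_univ_three]
  have h4 : (!₂[0, -1, Real.sqrt 2] : E3) -
      inner ℝ (!₂[0, -1, Real.sqrt 2] : E3) (!₂[1, 0, 0] : E3) • (!₂[1, 0, 0] : E3)
      = !₂[0, -1, Real.sqrt 2] := by
    ext i; fin_cases i <;> simp [PiLp.inner_apply, Fin.sum_univ_three]
  simp only [Set.image_insert_eq, Set.image_singleton, h1, h2, h3, h4, Set.insert_eq_of_mem,
    Set.mem_insert_iff, true_or]
  rw [area_triangle_of_perp _ hv]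
  · congr 1
    have : det3 ((!₂[0, 1, Real.sqrt 2] : E3) - 0) ((!₂[0, -1, Real.sqrt 2] : E3) - 0)
        (!₂[1, 0, 0] : E3) = 2 * Real.sqrt 2 := by
      simp [det3]; ring
    rw [this, abs_of_nonneg (by positivity)]; ring
  · simp
  · simp [PiLp.inner_apply, Fin.sum_univ_three]
  · simp [PiLp.inner_apply, Fin.sum_univ_three]

end Crest.Agent.helper9
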